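import Vale.Agent.P202.Full

namespace Vale.Agent.Results.P202.AllDimThree

open IsLocalRing Vale.Agent.P202

universe u v

theorem result {R : Type u} {S : Type v}
    [CommRing R] [IsLocalRing R] [IsNoetherianRing R]
    [CommRing S] [IsLocalRing S] [IsNoetherianRing S]
    [Algebra R S] [Module.Flat R S] [IsLocalHom (algebraMap R S)]
    (hd : ringKrullDim R ≤ 3) :
    (∃ eR : ℝ, HasMult R eR) ∧ (∃ eS : ℝ, HasMult S eS) ∧
      ∀ eR eS : ℝ, HasMult R eR → HasMult S eS → eR ≤ eS := by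
  obtain ⟨d, hd'⟩ := exists_dim_nat (R := R)
  have hd3 : d ≤ 3 := by
    rw [hd'] at hd
    exact_mod_cast hd
  obtain ⟨eR, eS, hR, hS, -, h⟩ := full_ineq (R := R) (S := S) d hd'
  have h4 : (d - 2).factorial = 1 := by
    have h5 : d - 2 = 0 ∨ d - 2 = 1 := by omega
    rcases h5 with h5 | h5
    · rw [h5]; rfl
    · rw [h5]; rfl
  rw [h4, Nat.cast_one, one_mul] at h
  refine ⟨⟨eR, hR⟩, ⟨eS, hS⟩, fun eR' eS' hR' hS' => ?_⟩
  rw [hasMult_unique hR' hR, hasMult_unique hS' hS]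
  exact h

end Vale.Agent.Results.P202.AllDimThree
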