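import Vale.Agent.P202.Full
import Vale.Agent.P202Z.ZE3
import Vale.Agent.P202C.SM
import Vale.Agent.P202C.GBlk
import Vale.Agent.P202C.U4
import Vale.Agent.P202C.UltNum
import Vale.Agent.P202E.Comp

namespace Vale.Agent.Results.P202.AllFactorial

open IsLocalRing Vale.Agent.P202

universe u v

theorem result {R : Type u} {S : Type v}
    [CommRing R] [IsLocalRing R] [IsNoetherianRing R]
    [CommRing S] [IsLocalRing S] [IsNoetherianRing S]
    [Algebra R S] [Module.Flat R S] [IsLocalHom (algebraMap R S)]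
    (d : ℕ) (hd : ringKrullDim R = d) :
    (∃ eR : ℝ, HasMult R eR) ∧ (∃ eS : ℝ, HasMult S eS) ∧
      ∀ eR eS : ℝ, HasMult R eR → HasMult S eS → eR ≤ ((d - 2).factorial : ℝ) * eS := by
  obtain ⟨eR, eS, hR, hS, -, h⟩ := full_ineq (R := R) (S := S) d hd
  refine ⟨⟨eR, hR⟩, ⟨eS, hS⟩, fun eR' eS' hR' hS' => ?_⟩
  rw [hasMult_unique hR' hR, hasMult_unique hS' hS]
  exact h

end Vale.Agent.Results.P202.AllFactorial
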