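import Vale.Agent.P202E.Zero
import Vale.Agent.P202K.Fin2

namespace Vale.Agent.Results.P202.EqualCharacteristic

open IsLocalRing Vale.Agent.P202

universe u v

theorem result {R : Type u} {S : Type v}
    [CommRing R] [IsLocalRing R] [IsNoetherianRing R]
    [CommRing S] [IsLocalRing S] [IsNoetherianRing S]
    [Algebra R S] [Module.Flat R S] [IsLocalHom (algebraMap R S)]
    (hK : ∃ K : Subring R, IsField K) :
    (∃ eR : ℝ, HasMult R eR) ∧ (∃ eS : ℝ, HasMult S eS) ∧
      ∀ eR eS : ℝ, HasMult R eR → HasMult S eS → eR ≤ eS := by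
  have h : P202E.LechOK.{u, v} R := by
    refine P202E.lechOK_field R (fun p _ _ => ?_) (P202E.lechOK_zero R) hK
    intro _ _ S _ _ _ _ _ _ eR eS hR hS
    exact P202K.lech_charp p R S eR eS hR hS
  obtain ⟨d, hd⟩ := exists_dim_nat (R := R)
  obtain ⟨eR0, eS0, hR0, hS0, -, -⟩ := full_ineq (R := R) (S := S) d hd
  exact ⟨⟨eR0, hR0⟩, ⟨eS0, hS0⟩, h inferInstance inferInstance S⟩

end Vale.Agent.Results.P202.EqualCharacteristic
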