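import Vale.Agent.P202E.Zero
import Vale.Agent.P202K.Fin2

namespace Vale.Agent.Results.P202.FlatComponents

open IsLocalRing Vale.Agent.P202

universe u v

theorem result {R : Type u} {S : Type v}
    [CommRing R] [IsLocalRing R] [IsNoetherianRing R]
    [CommRing S] [IsLocalRing S] [IsNoetherianRing S]
    [Algebra R S] [Module.Flat R S] [IsLocalHom (algebraMap R S)] :
    (∃ eR : ℝ, HasMult R eR) ∧ (∃ eS : ℝ, HasMult S eS) ∧
      ∀ eR eS : ℝ, HasMult R eR → HasMult S eS →
        ((ringKrullDim R ≤ 3 ∨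
          ∀ P : Ideal R, P.IsPrime → ringKrullDim (R ⧸ P) = ringKrullDim R →
            ∃ K : Subring (R ⧸ P), IsField K) → eR ≤ eS) ∧
        (∀ d : ℕ, ringKrullDim R = d → eR ≤ ((d - 2).factorial : ℝ) * eS) := by
  have hp : ∀ (A : Type u) [CommRing A] (p : ℕ) [Fact p.Prime] [CharP A p],
      P202E.LechOK.{u, v} A := by
    intro A _ p _ _ _ _ S _ _ _ _ _ _ eR eS hR hS
    exact P202K.lech_charp p A S eR eS hR hS
  have hF : ∀ (A : Type u) [CommRing A] (K : Subring A), IsField K → P202E.LechOK.{u, v} A := by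
    intro A _ K hK
    exact P202E.lechOK_field A (fun p _ _ => hp A p) (P202E.lechOK_zero A) ⟨K, hK⟩
  obtain ⟨d, hd⟩ := exists_dim_nat (R := R)
  obtain ⟨eR0, eS0, hR0, hS0, -, h0⟩ := full_ineq (R := R) (S := S) d hd
  refine ⟨⟨eR0, hR0⟩, ⟨eS0, hS0⟩, fun eR eS hR hS => ⟨fun h => ?_, fun d' hd' => ?_⟩⟩
  · exact (P202E.components_of_field hF h).2.2 eR eS hR hS
  · have hdd : d' = d := by
      rw [hd] at hd'
      exact_mod_cast hd'.symm
    rw [hdd, Vale.Agent.P202.hasMult_unique hR hR0, Vale.Agent.P202.hasMult_unique hS hS0]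
    exact h0

end Vale.Agent.Results.P202.FlatComponents
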